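import Vale.Agent.P141.Final

open scoped ENNReal

namespace Vale.Agent.Results.P141.UnboundedSmallExponent

/-- The trilinear Hilbert transform is unbounded at every Holder tuple with `r ≤ 5/12`. -/
theorem result (p₁ p₂ p₃ r : ℝ≥0∞) (hH : Vale.Agent.P141.IsHolderTuple p₁ p₂ p₃ r)
    (hr : r ≤ 5 / 12) : ¬ Vale.Agent.P141.BoundedAt p₁ p₂ p₃ r :=
  Vale.Agent.P141.main_unbounded hH hr

end Vale.Agent.Results.P141.UnboundedSmallExponent
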